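import Mathlib

/-!
Two matroids on a finite set with bases of size `r` and with a common base, the first one near
paving: every subset of the ground set with at most `r - t` elements is independent (paving is
`t = 1`).  From any base of the second matroid one reaches a common base by at most `t ^ 2` single
exchanges inside the bases of the second matroid, so the common bases are at least a
`(1 + r (n - r)) ^ (- t ^ 2)` fraction of the bases of the second matroid.
-/

namespace Vale.Agent.Results.P317.NearPavingRatio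

open Classical

variable {α : Type*}

/-- An independent finite set of size `r` in a finite matroid with all bases of size `r` is a base. -/
lemma isBase_of_indep_card {E : Finset α} {M : Matroid α} (hE : M.E = ↑E) {r : ℕ}
    (hr : ∀ X : Finset α, M.IsBase ↑X → X.card = r) {X : Finset α}
    (hX : M.Indep ↑X) (hc : X.card = r) : M.IsBase ↑X := by
  obtain ⟨B, hB, hXB⟩ := hX.exists_isBase_superset
  have hBfin : B.Finite := (E.finite_toSet).subset (hE ▸ hB.subset_ground)
  obtain ⟨F, rfl⟩ := hBfin.exists_finset_coe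
  have hsub : X ⊆ F := by exact_mod_cast hXB
  have hcF := hr F hB
  have : X = F := Finset.eq_of_subset_of_card_le hsub (by omega)
  rwa [this]

/-- Rank of a finite set as a natural number. -/
noncomputable def rk (M : Matroid α) (X : Finset α) : ℕ := (M.eRk (X : Set α)).toNat

lemma eRk_ne_top (M : Matroid α) (X : Finset α) : M.eRk (X : Set α) ≠ ⊤ := by
  have h := M.eRk_le_encard (X : Set α)
  rw [Set.encard_coe_eq_coe_finsetCard] at h
  exact ne_top_of_le_ne_top (ENat.natCast_ne_top _) h

lemma coe_rk (M : Matroid α) (X : Finset α) : ((rk M X : ℕ) : ℕ∞) = M.eRk (X : Set α) :=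
  ENat.natCast_toNat (eRk_ne_top M X)

lemma rk_le_card (M : Matroid α) (X : Finset α) : rk M X ≤ X.card := by
  have h := M.eRk_le_encard (X : Set α)
  rw [Set.encard_coe_eq_coe_finsetCard, ← coe_rk] at h
  exact_mod_cast h

lemma card_le_rk_of_indep {M : Matroid α} {S X : Finset α} (hS : M.Indep (S : Set α)) (hSX : S ⊆ X) :
    S.card ≤ rk M X := by
  have h := hS.encard_le_eRk_of_subset (X := (X : Set α)) (by exact_mod_cast hSX)
  rw [Set.encard_coe_eq_coe_finsetCard, ← coe_rk] at h
  exact_mod_cast h

lemma indep_of_rk_eq {M : Matroid α} {X : Finset α} (h : rk M X = X.card) : M.Indep (X : Set α) := by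
  rw [Matroid.indep_iff_eRk_eq_encard_of_finite (Finset.finite_toSet X),
    Set.encard_coe_eq_coe_finsetCard, ← coe_rk, h]

/-- The coloops of the restriction of `M` to `X`. -/
noncomputable def coloops (M : Matroid α) (X : Finset α) : Finset α :=
  X.filter fun e => e ∉ M.closure ((X.erase e : Finset α) : Set α)

lemma coe_insert_erase_eq {X : Finset α} {e : α} (he : e ∈ X) :
    insert e ((X.erase e : Finset α) : Set α) = (X : Set α) := by
  rw [← Finset.coe_insert, Finset.insert_erase he]

/-- Exchange of a non coloop: the rank goes up. -/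
lemma rk_exchange_up {M : Matroid α} {X : Finset α} {e y : α} (he : e ∈ X)
    (hcl : e ∈ M.closure ((X.erase e : Finset α) : Set α)) (hy : y ∈ M.E)
    (hyX : y ∉ M.closure (X : Set α)) : rk M (insert y (X.erase e)) = rk M X + 1 := by
  have hc : M.closure ((X.erase e : Finset α) : Set α) = M.closure (X : Set α) := by
    rw [← coe_insert_erase_eq he, Matroid.closure_insert_eq_of_mem_closure]
    simpa using hcl
  have h1 : M.eRk (insert y ((X.erase e : Finset α) : Set α)) =
      M.eRk ((X.erase e : Finset α) : Set α) + 1 :=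
    Matroid.eRk_insert_eq_add_one ⟨hy, by rw [hc]; exact hyX⟩
  have h2 : M.eRk ((X.erase e : Finset α) : Set α) = M.eRk (X : Set α) := by
    rw [← M.eRk_closure_eq ((X.erase e : Finset α) : Set α), hc, M.eRk_closure_eq]
  have h3 : (((rk M (insert y (X.erase e)) : ℕ) : ℕ∞)) = ((rk M X + 1 : ℕ) : ℕ∞) := by
    rw [coe_rk, Finset.coe_insert, h1, h2, Nat.cast_add, coe_rk]
    rfl
  exact_mod_cast h3

/-- Exchange of a coloop: the rank stays. -/
lemma rk_exchange_same {M : Matroid α} {X : Finset α} {e y : α} (he : e ∈ X) (heE : e ∈ M.E)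
    (hcl : e ∉ M.closure ((X.erase e : Finset α) : Set α)) (hy : y ∈ M.E)
    (hyX : y ∉ M.closure (X : Set α)) : rk M (insert y (X.erase e)) = rk M X := by
  have hsub : ((X.erase e : Finset α) : Set α) ⊆ (X : Set α) := by
    exact_mod_cast Finset.erase_subset e X
  have h1 : M.eRk (insert y ((X.erase e : Finset α) : Set α)) =
      M.eRk ((X.erase e : Finset α) : Set α) + 1 :=
    Matroid.eRk_insert_eq_add_one ⟨hy, fun h => hyX (M.closure_subset_closure hsub h)⟩
  have h2 : M.eRk (X : Set α) = M.eRk ((X.erase e : Finset α) : Set α) + 1 := by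
    conv_lhs => rw [← coe_insert_erase_eq he]
    exact Matroid.eRk_insert_eq_add_one ⟨heE, hcl⟩
  have h3 : (((rk M (insert y (X.erase e)) : ℕ) : ℕ∞)) = ((rk M X : ℕ) : ℕ∞) := by
    rw [coe_rk, coe_rk, Finset.coe_insert, h1, h2]
  exact_mod_cast h3

/-- Coloops after exchanging a coloop: the old ones minus the removed one, plus the new element. -/
lemma coloops_exchange {M : Matroid α} {X : Finset α} {e y f : α} (he : e ∈ X)
    (hcl : e ∉ M.closure ((X.erase e : Finset α) : Set α)) (hyX : y ∉ X)
    (hf : f ∈ coloops M (insert y (X.erase e))) (hfy : f ≠ y) :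
    f ∈ coloops M X ∧ f ≠ e := by
  have hf' := Finset.mem_filter.mp hf
  have hfA : f ∈ X.erase e := by
    rcases Finset.mem_insert.mp hf'.1 with h | h
    · exact absurd h hfy
    · exact h
  have hfe : f ≠ e := (Finset.mem_erase.mp hfA).1
  have hfX : f ∈ X := (Finset.mem_erase.mp hfA).2
  refine ⟨Finset.mem_filter.mpr ⟨hfX, ?_⟩, hfe⟩
  intro hmem
  -- `A = X - e`, `A' = A - f`
  set A' : Set α := (((X.erase e).erase f : Finset α) : Set α) with hA'
  have e1 : ((X.erase f : Finset α) : Set α) = insert e A' := by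
    ext a
    simp only [hA', Finset.coe_erase, Set.mem_sdiff, Finset.mem_coe, Set.mem_singleton_iff,
      Set.mem_insert_iff]
    by_cases hae : a = e
    · subst hae
      simp [he, hfe.symm]
    · simp [hae]
  have e2 : (((insert y (X.erase e)).erase f : Finset α) : Set α) = insert y A' := by
    ext a
    simp only [hA', Finset.coe_erase, Finset.coe_insert, Set.mem_sdiff, Finset.mem_coe,
      Set.mem_singleton_iff, Set.mem_insert_iff]
    by_cases hay : a = y
    · subst hay
      simp [hfy.symm]
    · simp [hay]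
  have h3 : f ∉ M.closure (insert y A') := by
    rw [← e2]
    exact hf'.2
  have h4 : f ∉ M.closure A' := fun h =>
    h3 (M.closure_subset_closure (Set.subset_insert _ _) h)
  rw [e1] at hmem
  have h5 := Matroid.mem_closure_insert h4 hmem
  have e3 : insert f A' = ((X.erase e : Finset α) : Set α) := by
    rw [hA', ← Finset.coe_insert, Finset.insert_erase hfA]
  rw [e3] at h5
  exact hcl h5

section main

variable {E : Finset α} {M₁ M₂ : Matroid α} {r t : ℕ}

lemma coloops_card
    (hpav : ∀ X : Finset α, (X : Set α) ⊆ M₁.E → X.card + t ≤ r → M₁.Indep ↑X)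
    {X : Finset α} (hX : (X : Set α) ⊆ M₁.E) (hc : X.card = r) (hdep : ¬ M₁.Indep ↑X) :
    (coloops M₁ X).card + 1 ≤ t := by
  have hD : M₁.Dep (X : Set α) := (Matroid.not_indep_iff hX).mp hdep
  obtain ⟨C, hCX, hC⟩ := hD.exists_isCircuit_subset
  have hCfin : C.Finite := (Finset.finite_toSet X).subset hCX
  obtain ⟨F, rfl⟩ := hCfin.exists_finset_coe
  have hFX : F ⊆ X := by exact_mod_cast hCX
  have hFt : r < F.card + t := by
    by_contra hcon
    exact hC.not_indep (hpav F ((by exact_mod_cast hFX : (F : Set α) ⊆ X).trans hX) (by omega))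
  have hdisj : Disjoint (coloops M₁ X) F := by
    rw [Finset.disjoint_left]
    intro f hf hfF
    have hf' := (Finset.mem_filter.mp hf).2
    apply hf'
    have h1 := hC.mem_closure_sdiff_singleton_of_mem (e := f) (by exact_mod_cast hfF)
    refine M₁.closure_subset_closure ?_ h1
    intro a ha
    simp only [Set.mem_sdiff, Finset.mem_coe, Set.mem_singleton_iff] at ha
    simp only [Finset.coe_erase, Set.mem_sdiff, Finset.mem_coe, Set.mem_singleton_iff]
    exact ⟨hFX ha.1, ha.2⟩
  have hsub : coloops M₁ X ∪ F ⊆ X :=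
    Finset.union_subset (Finset.filter_subset _ _) hFX
  have := Finset.card_le_card hsub
  rw [Finset.card_union_of_disjoint hdisj] at this
  omega

lemma rk_lower
    (hpav : ∀ X : Finset α, (X : Set α) ⊆ M₁.E → X.card + t ≤ r → M₁.Indep ↑X)
    {X : Finset α} (hX : (X : Set α) ⊆ M₁.E) (hc : X.card = r) : r ≤ rk M₁ X + t := by
  by_cases hrt : r ≤ t
  · omega
  obtain ⟨S, hSX, hS⟩ := Finset.exists_subset_card_eq (s := X) (n := r - t) (by omega)
  have hind := hpav S ((by exact_mod_cast hSX : (S : Set α) ⊆ X).trans hX) (by omega)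
  have := card_le_rk_of_indep hind hSX
  omega

/-- The potential of a base of `M₂`: zero exactly on common bases. -/
noncomputable def pot (M₁ : Matroid α) (Z : Finset α) (r t : ℕ) (X : Finset α) : ℕ :=
  if M₁.IsBase (X : Set α) then 0 else (r - rk M₁ X - 1) * t + ((coloops M₁ X) \ Z).card + 1

/-- The main step: a base of `M₂` of positive potential has a neighbour of smaller potential. -/
lemma exists_neighbour (h₁ : M₁.E = ↑E) (h₂ : M₂.E = ↑E)
    (hr₁ : ∀ X : Finset α, M₁.IsBase ↑X → X.card = r)
    (hr₂ : ∀ X : Finset α, M₂.IsBase ↑X → X.card = r)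
    (hpav : ∀ X : Finset α, (X : Set α) ⊆ M₁.E → X.card + t ≤ r → M₁.Indep ↑X)
    {Z : Finset α} (hZ₁ : M₁.IsBase ↑Z) (hZ₂ : M₂.IsBase ↑Z)
    {X : Finset α} (hX₂ : M₂.IsBase ↑X) {k : ℕ} (hk : pot M₁ Z r t X = k + 1) :
    ∃ e ∈ X, ∃ y, y ∉ X ∧ M₂.IsBase ↑(insert y (X.erase e)) ∧
      pot M₁ Z r t (insert y (X.erase e)) ≤ k := by
  have hcX : X.card = r := hr₂ X hX₂
  have hXE₂ : (X : Set α) ⊆ M₂.E := hX₂.subset_ground
  have hXE₁ : (X : Set α) ⊆ M₁.E := by rw [h₁, ← h₂]; exact hXE₂
  have hX₁ : ¬ M₁.IsBase (X : Set α) := by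
    intro h
    simp [pot, h] at hk
  have hkeq : k = (r - rk M₁ X - 1) * t + ((coloops M₁ X) \ Z).card := by
    simp only [pot, hX₁, if_false] at hk
    omega
  have hnotindep : ¬ M₁.Indep (X : Set α) := fun h => hX₁ (isBase_of_indep_card h₁ hr₁ h hcX)
  have hrkX : rk M₁ X < r := by
    have h1 := rk_le_card M₁ X
    by_contra hcon
    exact hnotindep (indep_of_rk_eq (by omega))
  -- an element of `Z` outside the closure of `X`
  obtain ⟨y, hyZ, hycl⟩ : ∃ y ∈ Z, y ∉ M₁.closure (X : Set α) := by
    by_contra hcon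
    push Not at hcon
    have hsub : (Z : Set α) ⊆ M₁.closure (X : Set α) := fun a ha => hcon a (by exact_mod_cast ha)
    have h1 : M₁.eRk (Z : Set α) ≤ M₁.eRk (X : Set α) := by
      rw [← M₁.eRk_closure_eq (X : Set α)]
      exact M₁.eRk_mono hsub
    rw [← coe_rk, ← coe_rk] at h1
    have h2 : rk M₁ Z ≤ rk M₁ X := by exact_mod_cast h1
    have h3 := card_le_rk_of_indep hZ₁.indep (Finset.Subset.refl Z)
    have h4 := hr₁ Z hZ₁
    omega
  have hyE₁ : y ∈ M₁.E := hZ₁.subset_ground (by exact_mod_cast hyZ)
  have hyE₂ : y ∈ M₂.E := hZ₂.subset_ground (by exact_mod_cast hyZ)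
  have hyX : y ∉ X := fun h => hycl (M₁.subset_closure _ hXE₁ (by exact_mod_cast h))
  have hyX' : y ∉ (X : Set α) := by exact_mod_cast hyX
  -- the fundamental circuit of `y` in `M₂`
  have hC := hX₂.fundCircuit_isCircuit hyE₂ hyX'
  have hycl₂ : y ∈ M₂.closure (X : Set α) := by
    rw [hX₂.closure_eq]
    exact hyE₂
  have hCsub := M₂.fundCircuit_subset_insert y (X : Set α)
  -- each element of the circuit gives an exchange
  have hexch : ∀ e ∈ M₂.fundCircuit y (X : Set α), e ≠ y →
      e ∈ X ∧ M₂.IsBase ↑(insert y (X.erase e)) := by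
    intro e he hey
    have heX : e ∈ X := by
      rcases hCsub he with h | h
      · exact absurd h hey
      · exact_mod_cast h
    refine ⟨heX, ?_⟩
    have hind := (hX₂.indep.mem_fundCircuit_iff hycl₂ hyX').mp he
    have hset : insert y (X : Set α) \ {e} = ↑(insert y (X.erase e)) := by
      ext a
      simp only [Set.mem_sdiff, Set.mem_insert_iff, Finset.mem_coe, Set.mem_singleton_iff,
        Finset.coe_insert, Finset.coe_erase]
      by_cases hay : a = y
      · subst hay
        simp [hey.symm]
      · simp [hay]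
    rw [hset] at hind
    refine isBase_of_indep_card h₂ hr₂ hind ?_
    rw [Finset.card_insert_of_notMem (fun h => hyX (Finset.mem_of_mem_erase h)),
      Finset.card_erase_of_mem heX, hcX]
    have : 0 < X.card := Finset.card_pos.mpr ⟨e, heX⟩
    omega
  have hX'E : ∀ e, e ∈ X → ((insert y (X.erase e) : Finset α) : Set α) ⊆ M₁.E := by
    intro e _ a ha
    simp only [Finset.coe_insert, Finset.coe_erase, Set.mem_insert_iff, Set.mem_sdiff,
      Finset.mem_coe, Set.mem_singleton_iff] at ha
    rcases ha with rfl | h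
    · exact hyE₁
    · exact hXE₁ (by exact_mod_cast h.1)
  have hX'card : ∀ e, e ∈ X → (insert y (X.erase e)).card = r := by
    intro e he
    rw [Finset.card_insert_of_notMem (fun h => hyX (Finset.mem_of_mem_erase h)),
      Finset.card_erase_of_mem he, hcX]
    have : 0 < X.card := Finset.card_pos.mpr ⟨e, he⟩
    omega
  by_cases hcase : ∃ e ∈ M₂.fundCircuit y (X : Set α), e ≠ y ∧
      e ∈ M₁.closure ((X.erase e : Finset α) : Set α)
  · -- exchange of a non coloop: the rank goes up
    obtain ⟨e, he, hey, hecl⟩ := hcase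
    obtain ⟨heX, hbase⟩ := hexch e he hey
    refine ⟨e, heX, y, hyX, hbase, ?_⟩
    have hrk := rk_exchange_up heX hecl hyE₁ hycl
    unfold pot
    split_ifs with hb
    · omega
    · have hni : ¬ M₁.Indep ((insert y (X.erase e) : Finset α) : Set α) :=
        fun h => hb (isBase_of_indep_card h₁ hr₁ h (hX'card e heX))
      have hcard := coloops_card hpav (hX'E e heX) (hX'card e heX) hni
      have hle : ((coloops M₁ (insert y (X.erase e))) \ Z).card ≤
          (coloops M₁ (insert y (X.erase e))).card :=
        Finset.card_le_card Finset.sdiff_subset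
      have hd1 : r - rk M₁ X - 1 = (r - rk M₁ (insert y (X.erase e)) - 1) + 1 := by
        have hlt : rk M₁ (insert y (X.erase e)) < r := by
          have h1 := rk_le_card M₁ (insert y (X.erase e))
          rw [hX'card e heX] at h1
          by_contra hcon
          apply hni
          apply indep_of_rk_eq
          rw [hX'card e heX]
          omega
        omega
      rw [hkeq, hd1, Nat.add_mul, Nat.one_mul]
      omega
  · -- all elements are coloops: exchange one outside `Z`
    push Not at hcase
    have hnotZ : ∃ e ∈ M₂.fundCircuit y (X : Set α), e ≠ y ∧ e ∉ Z := by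
      by_contra hcon
      push Not at hcon
      apply hC.not_indep
      apply hZ₂.indep.subset
      intro a ha
      by_cases hay : a = y
      · subst hay
        exact_mod_cast hyZ
      · exact_mod_cast hcon a ha hay
    obtain ⟨e, he, hey, heZ⟩ := hnotZ
    obtain ⟨heX, hbase⟩ := hexch e he hey
    have hecl := hcase e he hey
    have heE : e ∈ M₁.E := hXE₁ (by exact_mod_cast heX)
    refine ⟨e, heX, y, hyX, hbase, ?_⟩
    have hrk := rk_exchange_same heX heE hecl hyE₁ hycl
    have hsub : ((coloops M₁ (insert y (X.erase e))) \ Z) ⊂ ((coloops M₁ X) \ Z) := by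
      refine Finset.ssubset_iff_of_subset ?_ |>.mpr ⟨e, ?_, ?_⟩
      · intro f hf
        obtain ⟨hf1, hf2⟩ := Finset.mem_sdiff.mp hf
        have hfy : f ≠ y := fun h => hf2 (h ▸ hyZ)
        exact Finset.mem_sdiff.mpr ⟨(coloops_exchange heX hecl hyX hf1 hfy).1, hf2⟩
      · exact Finset.mem_sdiff.mpr ⟨Finset.mem_filter.mpr ⟨heX, hecl⟩, heZ⟩
      · intro h
        obtain ⟨hf1, hf2⟩ := Finset.mem_sdiff.mp h
        exact (coloops_exchange heX hecl hyX hf1 hey).2 rfl
    have hcardlt := Finset.card_lt_card hsub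
    unfold pot
    split_ifs with hb
    · omega
    · rw [hkeq, hrk]
      omega

/-- The potential is at most `t ^ 2` on the ground set. -/
lemma pot_le (h₁ : M₁.E = ↑E) (h₂ : M₂.E = ↑E)
    (hr₁ : ∀ X : Finset α, M₁.IsBase ↑X → X.card = r)
    (hr₂ : ∀ X : Finset α, M₂.IsBase ↑X → X.card = r)
    (hpav : ∀ X : Finset α, (X : Set α) ⊆ M₁.E → X.card + t ≤ r → M₁.Indep ↑X)
    (Z : Finset α) {X : Finset α} (hX₂ : M₂.IsBase ↑X) : pot M₁ Z r t X ≤ t * t := by
  have hcX : X.card = r := hr₂ X hX₂
  have hXE₁ : (X : Set α) ⊆ M₁.E := by rw [h₁, ← h₂]; exact hX₂.subset_ground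
  unfold pot
  split_ifs with hb
  · exact Nat.zero_le _
  · have hni : ¬ M₁.Indep (X : Set α) := fun h => hb (isBase_of_indep_card h₁ hr₁ h hcX)
    have h1 := coloops_card hpav hXE₁ hcX hni
    have h2 := rk_lower hpav hXE₁ hcX
    have h3 : ((coloops M₁ X) \ Z).card ≤ (coloops M₁ X).card :=
      Finset.card_le_card Finset.sdiff_subset
    have h4 : (r - rk M₁ X - 1) * t ≤ (t - 1) * t := Nat.mul_le_mul_right _ (by omega)
    obtain ⟨s, rfl⟩ : ∃ s, t = s + 1 := ⟨t - 1, by omega⟩
    have h5 : (s + 1 - 1) * (s + 1) + (s + 1) = (s + 1) * (s + 1) := by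
      rw [Nat.add_sub_cancel]
      ring
    omega

end main

/-- **Near paving matroid intersection ratio.**  Let `M₁`, `M₂` be matroids on the finite ground set
`E`, all of whose bases have `r` elements, having a common base, and let `t` be such that every
subset of `E` with at most `r - t` elements is `M₁`-independent (`t = 1` means `M₁` is paving).  Then
the number of bases of `M₂` is at most `(1 + r (|E| - r)) ^ (t ^ 2)` times the number of common
bases. -/
theorem result (E : Finset α) (M₁ M₂ : Matroid α) (h₁ : M₁.E = ↑E) (h₂ : M₂.E = ↑E) (r t : ℕ)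
    (hr₁ : ∀ X : Finset α, M₁.IsBase ↑X → X.card = r)
    (hr₂ : ∀ X : Finset α, M₂.IsBase ↑X → X.card = r)
    (hpaving : ∀ X : Finset α, (X : Set α) ⊆ M₁.E → X.card + t ≤ r → M₁.Indep ↑X)
    (hcommon : ∃ Z : Finset α, M₁.IsBase ↑Z ∧ M₂.IsBase ↑Z) :
    (E.powerset.filter fun X : Finset α => M₂.IsBase (X : Set α)).card ≤
      (1 + r * (E.card - r)) ^ (t ^ 2) *
        (E.powerset.filter fun X : Finset α =>
          M₁.IsBase (X : Set α) ∧ M₂.IsBase (X : Set α)).card := by
  obtain ⟨Z, hZ₁, hZ₂⟩ := hcommon
  set B₂ := E.powerset.filter fun X : Finset α => M₂.IsBase (X : Set α) with hB₂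
  set N := E.powerset.filter fun X : Finset α => M₁.IsBase (X : Set α) ∧ M₂.IsBase (X : Set α) with hN
  let B : ℕ → Finset (Finset α) := fun k => B₂.filter fun X => pot M₁ Z r t X ≤ k
  let nb : Finset α → Finset (Finset α) := fun Y =>
    (Y ×ˢ (E \ Y)).image fun p => insert p.2 (Y.erase p.1)
  have hmem₂ : ∀ X, X ∈ B₂ ↔ X ⊆ E ∧ M₂.IsBase (X : Set α) := by
    intro X
    rw [hB₂, Finset.mem_filter, Finset.mem_powerset]
  have hB0 : (B 0).card ≤ N.card := by
    apply Finset.card_le_card
    intro X hX
    have hX' := Finset.mem_filter.mp hX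
    have hp := hX'.2
    have hb : M₁.IsBase (X : Set α) := by
      by_contra hb
      simp [pot, hb] at hp
    have hm := (hmem₂ X).mp hX'.1
    exact Finset.mem_filter.mpr ⟨Finset.mem_powerset.mpr hm.1, hb, hm.2⟩
  have hnb : ∀ Y ∈ B₂, (nb Y).card ≤ r * (E.card - r) := by
    intro Y hY
    have hm := (hmem₂ Y).mp hY
    have hcY : Y.card = r := hr₂ Y hm.2
    calc (nb Y).card ≤ (Y ×ˢ (E \ Y)).card := Finset.card_image_le
      _ = r * (E.card - r) := by
        rw [Finset.card_product, hcY, Finset.card_sdiff_of_subset hm.1, hcY]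
  have hstep : ∀ k, (B (k + 1)).card ≤ (1 + r * (E.card - r)) * (B k).card := by
    intro k
    let A := B₂.filter fun X => pot M₁ Z r t X = k + 1
    have hsub : B (k + 1) ⊆ B k ∪ A := by
      intro X hX
      have hX' := Finset.mem_filter.mp hX
      by_cases hle : pot M₁ Z r t X ≤ k
      · exact Finset.mem_union_left _ (Finset.mem_filter.mpr ⟨hX'.1, hle⟩)
      · exact Finset.mem_union_right _ (Finset.mem_filter.mpr ⟨hX'.1, by omega⟩)
    have hcover : A ⊆ (B k).biUnion nb := by
      intro X hX
      have hX' := Finset.mem_filter.mp hX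
      have hm := (hmem₂ X).mp hX'.1
      obtain ⟨e, he, y, hy, hb₂, hp⟩ :=
        exists_neighbour h₁ h₂ hr₁ hr₂ hpaving hZ₁ hZ₂ hm.2 hX'.2
      have hyE : y ∈ E := by
        have : y ∈ ((insert y (X.erase e) : Finset α) : Set α) := by simp
        have := hb₂.subset_ground this
        rw [h₂] at this
        exact_mod_cast this
      refine Finset.mem_biUnion.mpr ⟨insert y (X.erase e), ?_, ?_⟩
      · refine Finset.mem_filter.mpr ⟨(hmem₂ _).mpr ⟨?_, hb₂⟩, hp⟩
        intro a ha
        rcases Finset.mem_insert.mp ha with h | h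
        · exact h ▸ hyE
        · exact hm.1 (Finset.mem_of_mem_erase h)
      · refine Finset.mem_image.mpr ⟨(y, e), ?_, ?_⟩
        · have hey : e ≠ y := fun h => hy (h ▸ he)
          refine Finset.mem_product.mpr ⟨Finset.mem_insert_self _ _, ?_⟩
          refine Finset.mem_sdiff.mpr ⟨hm.1 he, ?_⟩
          intro hmem
          rcases Finset.mem_insert.mp hmem with h | h
          · exact hey h
          · exact (Finset.mem_erase.mp h).1 rfl
        · ext a
          simp only [Finset.mem_insert, Finset.mem_erase]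
          constructor
          · rintro (h | h)
            · exact h ▸ he
            · rcases h.2 with h' | h'
              · exact absurd h' h.1
              · exact h'.2
          · intro haX
            by_cases hae : a = e
            · exact Or.inl hae
            · exact Or.inr ⟨fun h => hy (h ▸ haX), Or.inr ⟨hae, haX⟩⟩
    have hnb' : ∀ Y ∈ B k, (nb Y).card ≤ r * (E.card - r) :=
      fun Y hY => hnb Y (Finset.mem_filter.mp hY).1
    have hA : A.card ≤ (B k).card * (r * (E.card - r)) :=
      (Finset.card_le_card hcover).trans (Finset.card_biUnion_le_card_mul _ _ _ hnb')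
    calc (B (k + 1)).card ≤ (B k ∪ A).card := Finset.card_le_card hsub
      _ ≤ (B k).card + A.card := Finset.card_union_le _ _
      _ ≤ (B k).card + (B k).card * (r * (E.card - r)) := by omega
      _ = (1 + r * (E.card - r)) * (B k).card := by ring
  have hall : ∀ k, (B k).card ≤ (1 + r * (E.card - r)) ^ k * N.card := by
    intro k
    induction k with
    | zero => simpa using hB0
    | succ k ih =>
      calc (B (k + 1)).card ≤ (1 + r * (E.card - r)) * (B k).card := hstep k
        _ ≤ (1 + r * (E.card - r)) * ((1 + r * (E.card - r)) ^ k * N.card) :=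
          Nat.mul_le_mul_left _ ih
        _ = (1 + r * (E.card - r)) ^ (k + 1) * N.card := by ring
  have hfinal : B (t ^ 2) = B₂ := by
    apply Finset.filter_true_of_mem
    intro X hX
    rw [pow_two]
    exact pot_le h₁ h₂ hr₁ hr₂ hpaving Z ((hmem₂ X).mp hX).2
  rw [← hfinal]
  exact hall (t ^ 2)

end Vale.Agent.Results.P317.NearPavingRatio
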