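import Mathlib

/-!
Two matroids on a finite set with bases of size `r`, the first one paving (every set of fewer
than `r` elements of the ground set is independent), and with a common base.  Every base of the
second matroid is at Johnson distance at most one from a common base, so the common bases are at
least a `1 / (1 + r (n - r))` fraction of the bases of the second matroid.
-/

namespace Vale.Agent.Results.P317.PavingRatio

open Classical

variable {α : Type*}

/-- An independent finite set of size `r` in a finite matroid with all bases of size `r` is a base. -/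
lemma isBase_of_indep_card {E : Finset α} {M : Matroid α} (hE : M.E = ↑E) {r : ℕ}
    (hr : ∀ X : Finset α, M.IsBase ↑X → X.card = r) {X : Finset α}
    (hX : M.Indep ↑X) (hc : X.card = r) : M.IsBase ↑X := by
  obtain ⟨B, hB, hXB⟩ := hX.exists_isBase_superset
  have hBfin : B.Finite := (E.finite_toSet).subset (hE ▸ hB.subset_ground)
  obtain ⟨F, rfl⟩ := hBfin.exists_finset_coe
  have hsub : X ⊆ F := by exact_mod_cast hXB
  have hcF := hr F hB
  have : X = F := Finset.eq_of_subset_of_card_le hsub (by omega)
  rwa [this]

/-- The exchange step: a base of the second matroid which is not a base of the first one is one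
exchange away from a common base. -/
lemma exists_neighbour {E : Finset α} {M₁ M₂ : Matroid α} (h₁ : M₁.E = ↑E) (h₂ : M₂.E = ↑E)
    {r : ℕ} (hr₁ : ∀ X : Finset α, M₁.IsBase ↑X → X.card = r)
    (hr₂ : ∀ X : Finset α, M₂.IsBase ↑X → X.card = r)
    (hpaving : ∀ X : Finset α, (X : Set α) ⊆ M₁.E → X.card < r → M₁.Indep ↑X)
    {Z : Finset α} (hZ₁ : M₁.IsBase ↑Z) (hZ₂ : M₂.IsBase ↑Z)
    {X : Finset α} (hX₂ : M₂.IsBase ↑X) (hX₁ : ¬ M₁.IsBase ↑X) :
    ∃ e ∈ X, ∃ y, y ∉ X ∧ M₁.IsBase ↑(insert y (X.erase e)) ∧ M₂.IsBase ↑(insert y (X.erase e)) := by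
  have hcX : X.card = r := hr₂ X hX₂
  have hXground : (X : Set α) ⊆ M₁.E := by
    rw [h₁, ← h₂]; exact hX₂.subset_ground
  have hnotindep : ¬ M₁.Indep ↑X := fun h => hX₁ (isBase_of_indep_card h₁ hr₁ h hcX)
  -- Every set `X` minus a point is an `M₁`-basis of `X`.
  have hbasis : ∀ e ∈ X, M₁.IsBasis ↑(X.erase e) ↑X := by
    intro e he
    have hind : M₁.Indep ↑(X.erase e) := by
      apply hpaving
      · exact (by exact_mod_cast Finset.erase_subset e X : ((X.erase e : Finset α) : Set α) ⊆ X).trans
          hXground
      · rw [Finset.card_erase_of_mem he]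
        have : 0 < X.card := Finset.card_pos.mpr ⟨e, he⟩
        omega
    apply hind.isBasis_of_forall_insert (by exact_mod_cast Finset.erase_subset e X)
    rintro a ⟨ha, hna⟩
    have ha' : a ∈ X := by exact_mod_cast ha
    have hae : a = e := by
      by_contra hne
      exact hna (by exact_mod_cast Finset.mem_erase.mpr ⟨hne, ha'⟩)
    subst hae
    have : insert a ((X.erase a : Finset α) : Set α) = (X : Set α) := by
      rw [← Finset.coe_insert, Finset.insert_erase ha']
    rw [this, ← Matroid.not_indep_iff hXground]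
    exact hnotindep
  -- `X` is nonempty
  have hXne : X.Nonempty := by
    by_contra hne
    rw [Finset.not_nonempty_iff_eq_empty] at hne
    have hc0 : r = 0 := by rw [← hcX, hne]; rfl
    have hZ0 : Z.card = 0 := by rw [hr₁ Z hZ₁, hc0]
    have hZe : Z = ∅ := Finset.card_eq_zero.mp hZ0
    apply hX₁
    rw [hne]
    rw [hZe] at hZ₁
    exact hZ₁
  obtain ⟨e₀, he₀⟩ := hXne
  have hb₀ := hbasis e₀ he₀
  have hI₀ : ¬ M₁.IsBase ↑(X.erase e₀) := by
    intro h
    have := hr₁ _ h
    rw [Finset.card_erase_of_mem he₀] at this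
    have : 0 < X.card := Finset.card_pos.mpr ⟨e₀, he₀⟩
    omega
  obtain ⟨y, hy, hyind⟩ := hb₀.indep.exists_insert_of_not_isBase hI₀ hZ₁
  have hyZ : y ∈ Z := by exact_mod_cast hy.1
  have hyI : y ∉ X.erase e₀ := by
    intro h
    exact hy.2 (by exact_mod_cast h)
  have hyX : y ∉ X := by
    intro hyX
    have hye : y = e₀ := by
      by_contra hne
      exact hyI (Finset.mem_erase.mpr ⟨hne, hyX⟩)
    subst hye
    apply hnotindep
    have : insert y ((X.erase y : Finset α) : Set α) = (X : Set α) := by
      rw [← Finset.coe_insert, Finset.insert_erase he₀]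
    rwa [this] at hyind
  -- `y` is outside the `M₁`-closure of `X`.
  have hycl : y ∉ M₁.closure ↑X := by
    have := (hb₀.indep.insert_indep_iff_of_notMem (e := y) (by exact_mod_cast hyI)).mp hyind
    rw [hb₀.closure_eq_closure] at this
    exact this.2
  have hyE₁ : y ∈ M₁.E := hZ₁.subset_ground (by exact_mod_cast hyZ)
  -- Exchange in `M₂`.
  have hyind₂ : M₂.Indep {y} :=
    hZ₂.indep.subset (by simpa using hyZ)
  obtain ⟨B', hB', hyB', hB'sub⟩ := hyind₂.exists_isBase_subset_union_isBase hX₂
  have hB'fin : B'.Finite := (E.finite_toSet).subset (h₂ ▸ hB'.subset_ground)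
  obtain ⟨F, rfl⟩ := hB'fin.exists_finset_coe
  have hFc : F.card = r := hr₂ F hB'
  have hyF : y ∈ F := by
    have : y ∈ (F : Set α) := hyB' (by simp)
    exact_mod_cast this
  have hFsub : F ⊆ insert y X := by
    intro a ha
    have : a ∈ ({y} : Set α) ∪ (X : Set α) := hB'sub (by exact_mod_cast ha)
    rcases this with h | h
    · have : a = y := by simpa using h
      simp [this]
    · exact Finset.mem_insert_of_mem (by exact_mod_cast h)
  have hcins : (insert y X).card = r + 1 := by
    rw [Finset.card_insert_of_notMem hyX, hcX]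
  have hexists : ∃ e ∈ insert y X, e ∉ F := by
    by_contra hcon
    push Not at hcon
    have : (insert y X).card ≤ F.card := Finset.card_le_card hcon
    omega
  obtain ⟨e, heins, heF⟩ := hexists
  have hey : e ≠ y := fun h => heF (h ▸ hyF)
  have heX : e ∈ X := by
    rcases Finset.mem_insert.mp heins with h | h
    · exact absurd h hey
    · exact h
  have hnew : insert y (X.erase e) = F := by
    symm
    apply Finset.eq_of_subset_of_card_le
    · intro a ha
      have hane : a ≠ e := fun h => heF (h ▸ ha)
      rcases Finset.mem_insert.mp (hFsub ha) with h | h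
      · simp [h]
      · exact Finset.mem_insert_of_mem (Finset.mem_erase.mpr ⟨hane, h⟩)
    · rw [hFc, Finset.card_insert_of_notMem, Finset.card_erase_of_mem heX, hcX]
      · have : 0 < X.card := Finset.card_pos.mpr ⟨e, heX⟩
        omega
      · intro h
        exact hyX (Finset.mem_of_mem_erase h)
  have hb := hbasis e heX
  refine ⟨e, heX, y, hyX, ?_, by rw [hnew]; exact hB'⟩
  apply isBase_of_indep_card h₁ hr₁
  · rw [Finset.coe_insert]
    rw [hb.indep.insert_indep_iff_of_notMem]
    · refine ⟨hyE₁, ?_⟩
      rw [hb.closure_eq_closure]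
      exact hycl
    · intro h
      exact hyX (Finset.mem_of_mem_erase (by exact_mod_cast h))
  · rw [hnew, hFc]

/-- **Paving matroid intersection ratio.**  Let `M₁`, `M₂` be matroids on the finite ground set
`E`, all of whose bases have `r` elements, having a common base, and with `M₁` paving (every subset
of the ground set with fewer than `r` elements is `M₁`-independent).  Then the number of bases
of `M₂` is at most `1 + r (|E| - r)` times the number of common bases. -/
theorem result (E : Finset α) (M₁ M₂ : Matroid α) (h₁ : M₁.E = ↑E) (h₂ : M₂.E = ↑E) (r : ℕ)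
    (hr₁ : ∀ X : Finset α, M₁.IsBase ↑X → X.card = r)
    (hr₂ : ∀ X : Finset α, M₂.IsBase ↑X → X.card = r)
    (hpaving : ∀ X : Finset α, (X : Set α) ⊆ M₁.E → X.card < r → M₁.Indep ↑X)
    (hcommon : ∃ Z : Finset α, M₁.IsBase ↑Z ∧ M₂.IsBase ↑Z) :
    (E.powerset.filter fun X : Finset α => M₂.IsBase (X : Set α)).card ≤
      (1 + r * (E.card - r)) *
        (E.powerset.filter fun X : Finset α => M₁.IsBase (X : Set α) ∧ M₂.IsBase (X : Set α)).card := by
  obtain ⟨Z, hZ₁, hZ₂⟩ := hcommon
  set N := E.powerset.filter fun X : Finset α => M₁.IsBase (X : Set α) ∧ M₂.IsBase (X : Set α) with hN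
  set U := E.powerset.filter fun X : Finset α => M₂.IsBase (X : Set α) ∧ ¬ M₁.IsBase (X : Set α) with hU
  have hsplit : (E.powerset.filter fun X : Finset α => M₂.IsBase (X : Set α)) ⊆ N ∪ U := by
    intro X hX
    rw [Finset.mem_filter] at hX
    by_cases hX₁ : M₁.IsBase (X : Set α)
    · exact Finset.mem_union_left _ (Finset.mem_filter.mpr ⟨hX.1, hX₁, hX.2⟩)
    · exact Finset.mem_union_right _ (Finset.mem_filter.mpr ⟨hX.1, hX.2, hX₁⟩)
  let nb : Finset α → Finset (Finset α) := fun Y =>
    (Y ×ˢ (E \ Y)).image fun p => insert p.2 (Y.erase p.1)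
  have hcover : U ⊆ N.biUnion nb := by
    intro X hX
    rw [Finset.mem_filter] at hX
    obtain ⟨hXE, hX₂, hX₁⟩ := hX
    obtain ⟨e, he, y, hy, hb₁, hb₂⟩ :=
      exists_neighbour h₁ h₂ hr₁ hr₂ hpaving hZ₁ hZ₂ hX₂ hX₁
    rw [Finset.mem_powerset] at hXE
    have hyE : y ∈ E := by
      have : y ∈ ((insert y (X.erase e) : Finset α) : Set α) := by simp
      have := hb₂.subset_ground this
      rw [h₂] at this
      exact_mod_cast this
    refine Finset.mem_biUnion.mpr ⟨insert y (X.erase e), ?_, ?_⟩
    · refine Finset.mem_filter.mpr ⟨?_, hb₁, hb₂⟩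
      rw [Finset.mem_powerset]
      intro a ha
      rcases Finset.mem_insert.mp ha with h | h
      · exact h ▸ hyE
      · exact hXE (Finset.mem_of_mem_erase h)
    · refine Finset.mem_image.mpr ⟨(y, e), ?_, ?_⟩
      · have hey : e ≠ y := fun h => hy (h ▸ he)
        refine Finset.mem_product.mpr ⟨Finset.mem_insert_self _ _, ?_⟩
        refine Finset.mem_sdiff.mpr ⟨hXE he, ?_⟩
        intro hmem
        rcases Finset.mem_insert.mp hmem with h | h
        · exact hey h
        · exact (Finset.mem_erase.mp h).1 rfl
      · ext a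
        simp only [Finset.mem_insert, Finset.mem_erase]
        constructor
        · rintro (h | h)
          · exact h ▸ he
          · rcases h.2 with h' | h'
            · exact absurd h' h.1
            · exact h'.2
        · intro haX
          by_cases hae : a = e
          · exact Or.inl hae
          · exact Or.inr ⟨fun h => hy (h ▸ haX), Or.inr ⟨hae, haX⟩⟩
  have hnb : ∀ Y ∈ N, (nb Y).card ≤ r * (E.card - r) := by
    intro Y hY
    rw [Finset.mem_filter, Finset.mem_powerset] at hY
    have hcY : Y.card = r := hr₁ Y hY.2.1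
    calc (nb Y).card ≤ (Y ×ˢ (E \ Y)).card := Finset.card_image_le
      _ = r * (E.card - r) := by
        rw [Finset.card_product, hcY, Finset.card_sdiff_of_subset hY.1, hcY]
  have hUcard : U.card ≤ N.card * (r * (E.card - r)) :=
    (Finset.card_le_card hcover).trans (Finset.card_biUnion_le_card_mul _ _ _ hnb)
  calc (E.powerset.filter fun X : Finset α => M₂.IsBase (X : Set α)).card
      ≤ (N ∪ U).card := Finset.card_le_card hsplit
    _ ≤ N.card + U.card := Finset.card_union_le _ _
    _ ≤ N.card + N.card * (r * (E.card - r)) := by omega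
    _ = (1 + r * (E.card - r)) * N.card := by ring

end Vale.Agent.Results.P317.PavingRatio
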